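import Vale.Agent.P367.Stmt

/-! Common definitions of the parts of the proof: circuits with labels, path sums, programs. -/

set_option linter.all false

namespace Vale.Agent.P367

open MeasureTheory ProbabilityTheory Filter Topology Finset Vale.Agent.P146

noncomputable section

/-! ### Circuits with label dependent one qubit gates -/

abbrev M2 : Type := Matrix Bool Bool ℂ

abbrev Uni (V : M2) : Prop := V ∈ Matrix.unitaryGroup Bool ℂ

/-- `exp (-i t X)` -/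
def RX (t : ℝ) : M2 :=
  Matrix.of fun a b => if a = b then (Real.cos t : ℂ) else -(Complex.I * (Real.sin t : ℂ))

/-- `exp (-i t Z)` -/
def RZ (t : ℝ) : M2 := Matrix.diagonal fun a => Complex.exp (-(Complex.I * (t * spin a : ℝ)))

/-- the Pauli matrix `X` -/
def PX : M2 := Matrix.of fun a b => if a = b then 0 else 1

/-- tensor product of one qubit gates -/
def tens {n : ℕ} (V : Fin n → M2) (ψ : Bas n → ℂ) : Bas n → ℂ :=
  fun σ => ∑ τ : Bas n, (∏ i, V i (σ i) (τ i)) * ψ τ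

/-- `exp (-i γ C)` -/
def cph (n : ℕ) (J : Pair n → ℝ) (γ : ℝ) (ψ : Bas n → ℂ) : Bas n → ℂ :=
  fun σ => Complex.exp (-(Complex.I * (γ * ham n J σ : ℝ))) * ψ σ

/-- a circuit is a list of layers; the head is applied first -/
abbrev Circ (Λ : Type) : Type := List (ℝ × (Λ → M2))

def run {Λ : Type} (n : ℕ) (J : Pair n → ℝ) (lab : Fin n → Λ) (g : Circ Λ) (ψ : Bas n → ℂ) :
    Bas n → ℂ :=
  g.foldl (fun ψ a => tens (fun i => a.2 (lab i)) (cph n J a.1 ψ)) ψ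

/-- measurable unitary gates -/
def GOK {Λ : Type} [MeasurableSpace Λ] (V : Λ → M2) : Prop :=
  (∀ b c, Measurable fun l => V l b c) ∧ ∀ l, Uni (V l)

def COK {Λ : Type} [MeasurableSpace Λ] (g : Circ Λ) : Prop := ∀ a ∈ g, GOK a.2

/-- energy of a state -/
def en (n : ℕ) (J : Pair n → ℝ) (ψ : Bas n → ℂ) : ℝ := ∑ σ, ham n J σ * ‖ψ σ‖ ^ 2

/-- expected energy per spin with independent labels of law `ν` -/
def lval {Λ : Type} [MeasurableSpace Λ] (ν : Measure Λ) (g : Circ Λ) (n : ℕ) : ℝ :=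
  (∫ ω : (Fin n → Λ) × (Pair n → ℝ), en n ω.2 (run n ω.2 ω.1 g (plus n))
    ∂(Measure.pi fun _ => ν).prod (disorder n)) / n

def Lim {Λ : Type} [MeasurableSpace Λ] (ν : Measure Λ) (g : Circ Λ) (v : ℝ) : Prop :=
  Tendsto (lval ν g) atTop (𝓝 v)

/-- plain QAOA as a circuit without labels -/
def circ0 {p : ℕ} (γ β : Fin p → ℝ) : Circ Unit := List.ofFn fun t => (γ t, fun _ => RX (β t))

/-- circuits with a Gaussian random field gate: layer `t` is `RX (β t) * RZ (τ t * a) * c (γ t)` -/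
def circ1 {p : ℕ} (γ τ β : Fin p → ℝ) : Circ ℝ :=
  List.ofFn fun t => (γ t, fun a => RX (β t) * RZ (τ t * a))

/-! ### Path sums -/

/-- forward and backward spin paths; the value at `t < p` is the spin during the layer `t` -/
abbrev Path (p : ℕ) : Type := (Fin (p + 1) → Bool) × (Fin (p + 1) → Bool)

def amp {p : ℕ} (V : Fin p → M2) (a : Fin (p + 1) → Bool) : ℂ :=
  ((1 / √2 : ℝ) : ℂ) * ∏ t : Fin p, V t (a t.succ) (a t.castSucc)

def wt {p : ℕ} (V : Fin p → M2) (x : Path p) : ℂ :=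
  if x.1 (Fin.last p) = x.2 (Fin.last p) then amp V x.1 * (starRingEnd ℂ) (amp V x.2) else 0

def Phi {p : ℕ} (γ : Fin p → ℝ) (q : ℕ) (x y : Path p) : ℝ :=
  ∑ t : Fin p, if (t : ℕ) < q then γ t * (spin (x.1 t.castSucc) * spin (y.1 t.castSucc) -
    spin (x.2 t.castSucc) * spin (y.2 t.castSucc)) else 0

/-- the limit weights after the layers below `q` -/
def fq {p : ℕ} (γ : Fin p → ℝ) (f : Path p → ℂ) : ℕ → Path p → ℂ
  | 0 => f
  | q + 1 => fun x => fq γ f q x * Complex.exp (-(1 / 2) * ∑ y, fq γ f q y *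
      ((Phi γ (q + 1) x y ^ 2 - Phi γ q x y ^ 2 : ℝ) : ℂ))

/-- the limit energy -/
def tv {p : ℕ} (γ : Fin p → ℝ) (f : Path p → ℂ) : ℝ :=
  ((1 / 2 : ℂ) * ∑ x, ∑ y, fq γ f p x * fq γ f p y * (-(Complex.I * (Phi γ p x y *
    spin (x.1 (Fin.last p)) * spin (y.1 (Fin.last p)) : ℝ)))).re

/-! ### Message passing programs -/

def gk (k : ℕ) : Measure (Fin k → ℝ) := Measure.pi fun _ => gaussianReal 0 1

/-- `x l` is the field created by the message `u l`; the output is `μ` -/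
structure Prog (k : ℕ) where
  u : Fin k → (Fin k → ℝ) → ℝ
  μ : (Fin k → ℝ) → ℝ

def Prog.val {k : ℕ} (P : Prog k) : ℝ :=
  ∑ l, (∫ x, x l * P.μ x ∂gk k) * ∫ x, P.u l x * P.μ x ∂gk k

structure Prog.Meas {k : ℕ} (P : Prog k) : Prop where
  mu : ∀ l, Measurable (P.u l)
  l2 : ∀ l, MemLp (P.u l) 2 (gk k)
  ad : ∀ l x y, (∀ i, i < l → x i = y i) → P.u l x = P.u l y
  on : ∀ l l', ∫ x, P.u l x * P.u l' x ∂gk k = if l = l' then 1 else 0
  mm : Measurable P.μ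
  bd : ∀ x, |P.μ x| ≤ 1

/-- bounded Lipschitz messages, smooth output -/
structure Prog.Nice {k : ℕ} (P : Prog k) (B : ℝ) : Prop extends P.Meas where
  one_le : 1 ≤ B
  ub : ∀ l x, |P.u l x| ≤ B
  ul : ∀ l x y, |P.u l x - P.u l y| ≤ B * ∑ i, |x i - y i|
  ml : ∀ x y, |P.μ x - P.μ y| ≤ B * ∑ i, |x i - y i|
  md : ContDiff ℝ 1 P.μ
  mb : ∀ x, ‖fderiv ℝ P.μ x‖ ≤ B

/-! ### The contracts -/

/-- part A: the classical half -/
def PartA : Prop :=
  ∀ ε > 0, ∃ (k : ℕ) (P : Prog k), P.Meas ∧ ∀ n, 0 < n → gs n ≤ P.val + ε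

/-- part R: regularisation of programs -/
def PartR : Prop :=
  ∀ (k : ℕ) (P : Prog k), P.Meas → ∀ ε > 0, ∃ (P' : Prog k) (B : ℝ), P'.Nice B ∧ P.val - ε ≤ P'.val

/-- part D: circuits with labels run programs -/
def PartD : Prop :=
  ∀ (k : ℕ) (P : Prog k) (B : ℝ), P.Nice B → ∀ ε > 0, ∃ (Λ : Type) (_ : MeasurableSpace Λ)
    (ν : Measure Λ) (_ : IsProbabilityMeasure ν) (g : Circ Λ), COK g ∧
      ∀ᶠ n in atTop, P.val - ε ≤ lval ν g n

/-- part C: the limit formula -/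
def PartC : Prop :=
  ∀ (Λ : Type) [MeasurableSpace Λ] (ν : Measure Λ) [IsProbabilityMeasure ν] (p : ℕ)
    (γ : Fin p → ℝ) (V : Fin p → Λ → M2), (∀ t, GOK (V t)) →
    Lim ν (List.ofFn fun t => (γ t, V t)) (tv γ fun x => ∫ l, wt (fun t => V t l) x ∂ν)

/-- part Q: a Gaussian random field gate emulates labels -/
def PartQ : Prop :=
  ∀ (Λ : Type) [MeasurableSpace Λ] (ν : Measure Λ) [IsProbabilityMeasure ν] (g : Circ Λ) (v : ℝ),
    COK g → Lim ν g v → ∀ ε > 0, ∃ (p : ℕ) (γ τ β : Fin p → ℝ) (v' : ℝ),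
      Lim (gaussianReal 0 1) (circ1 γ τ β) v' ∧ v - ε ≤ v'

/-- part E: seeds emulate the random field gate -/
def PartE : Prop :=
  ∀ (p : ℕ) (γ τ β : Fin p → ℝ) (v : ℝ), Lim (gaussianReal 0 1) (circ1 γ τ β) v → ∀ ε > 0,
    ∃ (p' : ℕ) (γ' β' : Fin p' → ℝ) (v' : ℝ),
      Lim (Measure.dirac ()) (circ0 γ' β') v' ∧ v - ε ≤ v'

end

end Vale.Agent.P367
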