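import Vale.Agent.P367.Defs43

/-! Path sums in recursive form: vacuum amplitudes of words for a given Gram matrix of the modes.
This is the common language of the coherent state model (part S), of the reduction of labels to a
Gaussian random field (part T) and of the model with data fields (part M). -/

set_option linter.all false

namespace Vale.Agent.P367

open MeasureTheory ProbabilityTheory Filter Topology Finset Vale.Agent.P146

noncomputable section

/-- the Pauli matrix `Z` -/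
def PZ : M2 := Matrix.diagonal fun a => (spin a : ℂ)

/-- letters: a one qubit matrix, or `exp (-i g Z φ(f_j))` -/
inductive Lt : Type
  | m (A : M2) : Lt
  | w (j : ℕ) (g : ℝ) : Lt

def Lt.inv : Lt → Lt
  | .m A => .m (Matrix.conjTranspose A)
  | .w j g => .w j (-g)

/-- `⟨∑ h i f_i, ∑ k j f_j⟩` when `G i j = ⟨f_i, f_j⟩` -/
def Bf (N : ℕ) (G : ℕ → ℕ → ℂ) (h k : ℕ → ℝ) : ℂ :=
  ∑ i ∈ range N, ∑ j ∈ range N, ((h i * k j : ℝ) : ℂ) * G i j

/-- `⟨vac, word (co a (∑ h i f_i))⟩`; the head of the word is applied first -/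
def ampl (N : ℕ) (G : ℕ → ℕ → ℂ) : List Lt → Bool → (ℕ → ℝ) → ℂ
  | [], _, h => ((1 / √2 : ℝ) : ℂ) * Complex.exp (-(Bf N G h h) / 2)
  | .m A :: r, a, h => ∑ b, A b a * ampl N G r b h
  | .w j g :: r, a, h =>
      Complex.exp (Complex.I * ((spin a * g * (Bf N G (Pi.single j 1) h).im : ℝ) : ℂ)) *
        ampl N G r a (h - Pi.single j (spin a * g))

/-- `⟨vac, word vac⟩` -/
def vamp (N : ℕ) (G : ℕ → ℕ → ℂ) (r : List Lt) : ℂ :=
  ∑ a, ((1 / √2 : ℝ) : ℂ) * ampl N G r a 0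

/-- the first `j` layers; layer `i` is `c (γ i)` with the mode `f_i`, then the matrix `A i` -/
def fw (γ : ℕ → ℝ) (A : ℕ → M2) : ℕ → List Lt
  | 0 => []
  | j + 1 => fw γ A j ++ [.w j (γ j), .m (A j)]

/-- the word of `U_j⁻¹ Z U_j` -/
def zw (γ : ℕ → ℝ) (A : ℕ → M2) (j : ℕ) : List Lt :=
  fw γ A j ++ .m PZ :: ((fw γ A j).map Lt.inv).reverse

/-- `G j k = ⟨z_j, z_k⟩` with `z_j = U_j⁻¹ Z U_j vac`, averaged over the label -/
def IsGram {Λ : Type} [MeasurableSpace Λ] (ν : Measure Λ) (γ : ℕ → ℝ) (V : ℕ → Λ → M2)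
    (G : ℕ → ℕ → ℂ) : Prop :=
  ∀ j k, G j k = ∫ l, vamp (max j k) G (zw γ (fun i => V i l) k ++ zw γ (fun i => V i l) j) ∂ν

/-- limit energy per spin after `p` layers -/
def val3 (γ : ℕ → ℝ) (G : ℕ → ℕ → ℂ) (p : ℕ) : ℝ := ∑ t ∈ range p, γ t * (G p t ^ 2).im

/-- the values of circuits with label dependent gates -/
def Q3 {Λ : Type} [MeasurableSpace Λ] (ν : Measure Λ) : Set ℝ :=
  {v | ∃ (γ : ℕ → ℝ) (V : ℕ → Λ → M2) (G : ℕ → ℕ → ℂ) (p : ℕ),
    (∀ j, GOK (V j)) ∧ IsGram ν γ V G ∧ v = val3 γ G p}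

/-- the limits of plain QAOA -/
def Q1 : Set ℝ :=
  {v | ∃ (p : ℕ) (γ β : Fin p → ℝ), Tendsto (fun n => val n γ β) atTop (𝓝 v)}

/-- values of circuits with the gates `RX (β j) * RZ (τ j * a)`, `a` standard Gaussian -/
def Q2 : Set ℝ :=
  {v | ∃ (γ τ β : ℕ → ℝ) (G : ℕ → ℕ → ℂ) (p : ℕ),
    IsGram (gaussianReal 0 1) γ (fun j a => RX (β j) * RZ (τ j * a)) G ∧ v = val3 γ G p}

/-- values of circuits without labels -/
def Q0 : Set ℝ :=
  {v | ∃ (γ β : ℕ → ℝ) (G : ℕ → ℕ → ℂ) (p : ℕ),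
    IsGram (Measure.dirac ()) γ (fun j _ => RX (β j)) G ∧ v = val3 γ G p}

/-! ### The contracts -/

/-- part L: the limit formula -/
def PartL : Prop :=
  ∀ (γ β : ℕ → ℝ), ∃ G : ℕ → ℕ → ℂ, IsGram (Measure.dirac ()) γ (fun j _ => RX (β j)) G ∧
    ∀ p : ℕ, Tendsto (fun n => val n (fun t : Fin p => γ t) (fun t : Fin p => β t)) atTop
      (𝓝 (val3 γ G p))

/-- part S: seeds -/
def PartS : Prop := ∀ v ∈ Q2, ∀ ε > 0, ∃ v' ∈ Q0, v - ε ≤ v'

/-- part T: a Gaussian random field gate emulates labels -/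
def PartT : Prop :=
  ∀ (Λ : Type) [MeasurableSpace Λ] (ν : Measure Λ) [IsProbabilityMeasure ν],
    ∀ v ∈ Q3 ν, ∀ ε > 0, ∃ v' ∈ Q2, v - ε ≤ v'

/-- parts M, G, R: circuits with labels run message passing programs -/
def PartMG : Prop :=
  ∀ (k : ℕ) (P : Prog k), P.Meas → ∀ ε > 0, ∃ (Λ : Type) (_ : MeasurableSpace Λ)
    (ν : Measure Λ) (_ : IsProbabilityMeasure ν), ∃ v ∈ Q3 ν, P.val - ε ≤ v

/-- uniqueness of the Gram matrix -/
theorem IsGram.unique {Λ : Type} [MeasurableSpace Λ] {ν : Measure Λ} {γ : ℕ → ℝ}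
    {V : ℕ → Λ → M2} {G G' : ℕ → ℕ → ℂ} (h : IsGram ν γ V G) (h' : IsGram ν γ V G') :
    G = G' := by
  have hB : ∀ (N : ℕ), (∀ i < N, ∀ j < N, G i j = G' i j) → ∀ a b, Bf N G a b = Bf N G' a b := by
    intro N hN a b
    unfold Bf
    refine Finset.sum_congr rfl fun i hi => Finset.sum_congr rfl fun j hj => ?_
    rw [hN i (Finset.mem_range.1 hi) j (Finset.mem_range.1 hj)]
  have hA : ∀ (N : ℕ), (∀ i < N, ∀ j < N, G i j = G' i j) →
      ∀ r a x, ampl N G r a x = ampl N G' r a x := by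
    intro N hN r
    induction r with
    | nil => intro a x; simp only [ampl, hB N hN]
    | cons y r ih =>
      intro a x
      cases y with
      | m A => simp only [ampl, ih]
      | w j g => simp only [ampl, ih, hB N hN]
  have key : ∀ N : ℕ, ∀ i < N, ∀ j < N, G i j = G' i j := by
    intro N
    induction N with
    | zero => intro i hi; omega
    | succ N ih =>
      intro i hi j hj
      rw [h i j, h' i j]
      have hm : ∀ i' < max i j, ∀ j' < max i j, G i' j' = G' i' j' := fun i' hi' j' hj' =>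
        ih i' (by omega) j' (by omega)
      simp only [vamp, hA _ hm]
  funext i j
  exact key (max i j + 1) i (by omega) j (by omega)

end

end Vale.Agent.P367
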