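import Vale.Agent.P146.Defs

/-! QAOA on the Sherrington-Kirkpatrick model: the objects of the statement. -/

namespace Vale.Agent.P367

open MeasureTheory Filter Topology Vale.Agent.P146

noncomputable section

/-- Computational basis of `n` qubits; `true` is the eigenvalue `1` of `Z`. -/
abbrev Bas (n : ℕ) : Type := Fin n → Bool

/-- Operators on `n` qubits. -/
abbrev Op (n : ℕ) : Type := Matrix (Bas n) (Bas n) ℂ

/-- The Pauli matrix `X` on the qubit `i`. -/
def pauliX (n : ℕ) (i : Fin n) : Op n :=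
  Matrix.of fun σ τ => if τ = Function.update σ i (!σ i) then 1 else 0

/-- The Pauli matrix `Z` on the qubit `i`. -/
def pauliZ (n : ℕ) (i : Fin n) : Op n := Matrix.diagonal fun σ => (spin (σ i) : ℂ)

/-- The mixer `B_n`. -/
def mixer (n : ℕ) : Op n := ∑ i, pauliX n i

/-- The cost operator `C_{n,J}`. -/
def cost (n : ℕ) (J : Pair n → ℝ) : Op n :=
  ∑ p : Pair n, ((J p / √(n : ℝ) : ℝ) : ℂ) • (pauliZ n p.1.1 * pauliZ n p.1.2)

/-- The product state `|+⟩ ⊗ ⋯ ⊗ |+⟩`. -/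
def plus (n : ℕ) : Bas n → ℂ := fun _ => ((1 / √2 : ℝ) : ℂ) ^ n

/-- One layer `exp (-i β B) exp (-i γ C)`. -/
def layer (n : ℕ) (J : Pair n → ℝ) (γ β : ℝ) : Op n :=
  NormedSpace.exp (-(Complex.I * β) • mixer n) * NormedSpace.exp (-(Complex.I * γ) • cost n J)

/-- The QAOA state; the layers are applied in the order of the index. -/
def qaoa (n : ℕ) (J : Pair n → ℝ) {p : ℕ} (γ β : Fin p → ℝ) : Bas n → ℂ :=
  (List.ofFn fun t => layer n J (γ t) (β t)).foldl (fun ψ U => U.mulVec ψ) (plus n)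

/-- The energy `⟨ψ| C |ψ⟩` of a state. -/
def energy (n : ℕ) (J : Pair n → ℝ) (ψ : Bas n → ℂ) : ℝ :=
  (dotProduct (star ψ) ((cost n J).mulVec ψ)).re

/-- Expected energy per spin of the QAOA state at size `n`. -/
def val (n : ℕ) {p : ℕ} (γ β : Fin p → ℝ) : ℝ :=
  (∫ J, energy n J (qaoa n J γ β) ∂disorder n) / n

/-- Expected ground state energy per spin at size `n`. -/
def gs (n : ℕ) : ℝ := (∫ J, ⨆ σ : Bas n, ham n J σ ∂disorder n) / n

/-- `P_*` -/
def Pstar : ℝ := limUnder atTop gs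

/-- `v_p (γ, β)` -/
def vp {p : ℕ} (γ β : Fin p → ℝ) : ℝ := limUnder atTop fun n => val n γ β

/-- `Q_p` -/
def Qp (p : ℕ) : ℝ := ⨆ a : (Fin p → ℝ) × (Fin p → ℝ), vp a.1 a.2

end

end Vale.Agent.P367
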