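import Vale.Agent.P367.TopU

/-! Assembly of the parts. -/

set_option linter.all false

namespace Vale.Agent.P367

open MeasureTheory ProbabilityTheory Filter Topology Finset Vale.Agent.P146

/-- Proof. By `PartL` every `val n γ β` converges (extend `γ β` by zero to `ℕ`), and by
`IsGram.unique` every element of `Q0` is some `vp γ β`. By A, MG, T, S: for every `ε > 0` there are
`p γ β` with `gs n ≤ vp γ β + ε` for all `n > 0`. By `val_le_gs`, for every `δ > 0` eventually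
`vp γ β - δ ≤ gs n`. Hence `gs` is a Cauchy sequence, all `vp γ β ≤ Pstar`, `Qp` is monotone
(`val_snoc`), bounded by `Pstar`, and `Pstar - ε ≤ Qp p` for some `p`. -/
theorem final (hA : PartA) (hL : PartL) (hS : PartS) (hT : PartT) (hM : PartMG) :
    (∀ n, Integrable (fun J => ⨆ σ : Bas n, ham n J σ) (disorder n)) ∧
    (∀ (n p : ℕ) (γ β : Fin p → ℝ),
      Integrable (fun J => energy n J (qaoa n J γ β)) (disorder n)) ∧
    Tendsto gs atTop (𝓝 Pstar) ∧
    (∀ (p : ℕ) (γ β : Fin p → ℝ), Tendsto (fun n => val n γ β) atTop (𝓝 (vp γ β))) ∧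
    (∀ p : ℕ, BddAbove (Set.range fun a : (Fin p → ℝ) × (Fin p → ℝ) => vp a.1 a.2)) ∧
    Tendsto Qp atTop (𝓝 Pstar) := by
  have hconv : ∀ (p : ℕ) (γ β : Fin p → ℝ),
      Tendsto (fun n => val n γ β) atTop (𝓝 (vp γ β)) := by
    intro p γ β
    obtain ⟨G, -, hG⟩ := hL (fun j => if h : j < p then γ ⟨j, h⟩ else 0)
      (fun j => if h : j < p then β ⟨j, h⟩ else 0)
    have h1 := hG p
    simp only [Fin.is_lt, dif_pos, Fin.eta] at h1
    exact tendsto_nhds_limUnder ⟨_, h1⟩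
  have hQ0 : ∀ v ∈ Q0, ∃ (p : ℕ) (γ β : Fin p → ℝ), vp γ β = v := by
    rintro v ⟨γ, β, G, p, hG, rfl⟩
    obtain ⟨G', hG', h⟩ := hL γ β
    rw [hG.unique hG']
    exact ⟨p, _, _, (h p).limUnder_eq⟩
  have hup : ∀ ε > 0, ∃ (p : ℕ) (γ β : Fin p → ℝ), ∀ n, 0 < n → gs n ≤ vp γ β + ε := by
    intro ε hε
    have h4 : 0 < ε / 4 := by linarith
    obtain ⟨k, P, hP, h1⟩ := hA _ h4
    obtain ⟨Λ, _, ν, _, v3, hv3, h2⟩ := hM k P hP _ h4
    obtain ⟨v2, hv2, h3⟩ := hT Λ ν v3 hv3 _ h4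
    obtain ⟨v0, hv0, h5⟩ := hS v2 hv2 _ h4
    obtain ⟨p, γ, β, rfl⟩ := hQ0 v0 hv0
    exact ⟨p, γ, β, fun n hn => by linarith [h1 n hn]⟩
  have hlow : ∀ (p : ℕ) (γ β : Fin p → ℝ), ∀ δ > 0, ∀ᶠ n in atTop, vp γ β - δ ≤ gs n := by
    intro p γ β δ hδ
    filter_upwards [(hconv p γ β).eventually (lt_mem_nhds (sub_lt_self (vp γ β) hδ))] with n hn
    exact hn.le.trans (val_le_gs n γ β)
  have hC : CauchySeq gs := by
    refine Metric.cauchySeq_iff.2 fun ε hε => ?_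
    have h3 : 0 < ε / 3 := by linarith
    obtain ⟨p, γ, β, h1⟩ := hup _ h3
    obtain ⟨N, hN⟩ := eventually_atTop.1 (hlow p γ β _ h3)
    refine ⟨N + 1, fun m hm n hn => ?_⟩
    rw [Real.dist_eq, abs_lt]
    constructor <;>
      linarith [h1 m (by omega), h1 n (by omega), hN m (by omega), hN n (by omega)]
  have hgs : Tendsto gs atTop (𝓝 Pstar) := hC.tendsto_limUnder
  have hle : ∀ (p : ℕ) (γ β : Fin p → ℝ), vp γ β ≤ Pstar := fun p γ β =>
    le_of_tendsto_of_tendsto' (hconv p γ β) hgs fun n => val_le_gs n γ β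
  have hbd : ∀ p : ℕ,
      BddAbove (Set.range fun a : (Fin p → ℝ) × (Fin p → ℝ) => vp a.1 a.2) := fun p =>
    ⟨Pstar, by rintro _ ⟨a, rfl⟩; exact hle p a.1 a.2⟩
  have hQle : ∀ p, Qp p ≤ Pstar := fun p => ciSup_le fun a => hle p a.1 a.2
  have hmono : Monotone Qp := by
    refine monotone_nat_of_le_succ fun p => ciSup_le fun a => ?_
    have h1 : vp (Fin.snoc a.1 0 : Fin (p + 1) → ℝ) (Fin.snoc a.2 0 : Fin (p + 1) → ℝ) =
        vp a.1 a.2 := by
      unfold vp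
      simp only [val_snoc]
    rw [← h1]
    exact le_ciSup (hbd (p + 1)) (Fin.snoc a.1 0, Fin.snoc a.2 0)
  refine ⟨integrable_gs, fun n p γ β => integrable_energy n γ β, hgs, hconv, hbd, ?_⟩
  refine tendsto_order.2 ⟨fun a ha => ?_, fun a ha => Eventually.of_forall fun p =>
    (hQle p).trans_lt ha⟩
  have h2 : 0 < (Pstar - a) / 2 := by linarith
  obtain ⟨p, γ, β, h1⟩ := hup _ h2
  have h3 : Pstar ≤ vp γ β + (Pstar - a) / 2 :=
    le_of_tendsto hgs ((eventually_gt_atTop 0).mono h1)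
  have h4 : vp γ β ≤ Qp p := le_ciSup (hbd p) (γ, β)
  filter_upwards [eventually_ge_atTop p] with q hq
  linarith [hmono hq]

end Vale.Agent.P367
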