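import Vale.Agent.P367.PS

/-! The upper bound by measurement. -/

set_option linter.all false

namespace Vale.Agent.P367

open MeasureTheory ProbabilityTheory Filter Topology Finset Vale.Agent.P146

theorem topu_int_ham (n : ℕ) (σ : Bas n) : Integrable (fun g => ham n g σ) (disorder n) := by
  refine Integrable.const_mul (integrable_finsetSum _ fun p _ => ?_) _
  refine (Integrable.mul_const ?_ _).mul_const _
  exact (measurePreserving_eval (fun _ : Pair n => gaussianReal 0 1) p).integrable_comp_of_integrable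
    (IsGaussian.integrable_id (μ := gaussianReal 0 1))

/-- `|ham n J σ| ≤ ∑ p, |J p| / √n`, finite supremum of measurable functions. -/
theorem integrable_gs (n : ℕ) : Integrable (fun J => ⨆ σ : Bas n, ham n J σ) (disorder n) := by
  refine (integrable_finsetSum univ fun σ _ => (topu_int_ham n σ).abs).mono'
    (Measurable.iSup fun σ => by unfold ham; fun_prop).aestronglyMeasurable
    (ae_of_all _ fun g => ?_)
  obtain ⟨σ, e⟩ := exists_eq_ciSup_of_finite (f := fun σ => ham n g σ)
  rw [← e, Real.norm_eq_abs]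
  exact single_le_sum (f := fun σ => |ham n g σ|) (fun _ _ => abs_nonneg _) (mem_univ σ)

/-- `cost n J` is the diagonal matrix of `ham n J`. -/
theorem cost_eq (n : ℕ) (J : Pair n → ℝ) :
    cost n J = Matrix.diagonal fun σ => (ham n J σ : ℂ) := by
  ext σ τ
  simp only [cost, pauliZ, Matrix.diagonal_mul_diagonal, Matrix.sum_apply, Matrix.smul_apply,
    Matrix.diagonal_apply, smul_eq_mul]
  split_ifs with h
  · unfold ham
    push_cast
    rw [Finset.mul_sum]
    refine Finset.sum_congr rfl fun p _ => ?_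
    ring
  · simp

theorem topu_dot {n : ℕ} (ψ : Bas n → ℂ) :
    dotProduct (star ψ) ψ = ((∑ σ, ‖ψ σ‖ ^ 2 : ℝ) : ℂ) := by
  unfold dotProduct
  push_cast
  refine Finset.sum_congr rfl fun σ _ => ?_
  rw [Pi.star_apply, Complex.star_def, Complex.conj_mul']

theorem topu_uni {n : ℕ} {U : Op n} (hU : U.conjTranspose * U = 1) (ψ : Bas n → ℂ) :
    ∑ σ, ‖U.mulVec ψ σ‖ ^ 2 = ∑ σ, ‖ψ σ‖ ^ 2 := by
  have h : dotProduct (star (U.mulVec ψ)) (U.mulVec ψ) = dotProduct (star ψ) ψ := by
    rw [Matrix.star_mulVec, Matrix.dotProduct_mulVec, Matrix.vecMul_vecMul, hU, Matrix.vecMul_one]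
  rw [topu_dot, topu_dot] at h
  exact_mod_cast h

theorem topu_exp {n : ℕ} {A : Op n} (hA : A.conjTranspose = A) (t : ℝ) :
    (NormedSpace.exp (-(Complex.I * t) • A)).conjTranspose *
      NormedSpace.exp (-(Complex.I * t) • A) = 1 := by
  have e : (-(Complex.I * t) • A).conjTranspose = -(-(Complex.I * t) • A) := by
    rw [Matrix.conjTranspose_smul, hA, ← neg_smul]
    congr 1
    simp
  rw [← Matrix.exp_conjTranspose, e,
    ← Matrix.exp_add_of_commute _ _ (Commute.refl (-(Complex.I * t) • A)).neg_left, neg_add_cancel,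
    NormedSpace.exp_zero]

theorem topu_mixer (n : ℕ) : (mixer n).conjTranspose = mixer n := by
  unfold mixer
  rw [Matrix.conjTranspose_sum]
  refine Finset.sum_congr rfl fun i _ => ?_
  ext σ τ
  have e : σ = Function.update τ i (!τ i) ↔ τ = Function.update σ i (!σ i) := by
    constructor <;> rintro rfl <;> simp
  simp only [Matrix.conjTranspose_apply, pauliX, Matrix.of_apply, e]
  split_ifs <;> simp

theorem topu_cost (n : ℕ) (J : Pair n → ℝ) : (cost n J).conjTranspose = cost n J := by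
  rw [cost_eq, Matrix.diagonal_conjTranspose]
  congr 1
  funext σ
  simp

theorem topu_layer (n : ℕ) (J : Pair n → ℝ) (γ β : ℝ) :
    (layer n J γ β).conjTranspose * layer n J γ β = 1 := by
  unfold layer
  rw [Matrix.conjTranspose_mul, Matrix.mul_assoc, ← Matrix.mul_assoc _ _ (NormedSpace.exp _),
    topu_exp (topu_mixer n), Matrix.one_mul, topu_exp (topu_cost n J)]

theorem topu_plus (n : ℕ) : ∑ σ, ‖plus n σ‖ ^ 2 = 1 := by
  have h : ‖((1 / √2 : ℝ) : ℂ)‖ ^ 2 = 1 / 2 := by
    rw [Complex.norm_real, Real.norm_eq_abs, sq_abs, div_pow, Real.sq_sqrt (by norm_num), one_pow]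
  have h' : ‖((1 / √2 : ℝ) : ℂ) ^ n‖ ^ 2 = (1 / 2) ^ n := by
    rw [norm_pow, ← pow_mul, mul_comm, pow_mul, h]
  simp only [plus, h', Finset.sum_const,
    Finset.card_univ, Fintype.card_fun, Fintype.card_bool, Fintype.card_fin, nsmul_eq_mul]
  push_cast
  rw [← mul_pow]
  norm_num

theorem topu_fold {n : ℕ} (l : List (Op n)) (hl : ∀ U ∈ l, U.conjTranspose * U = 1) :
    ∀ ψ : Bas n → ℂ, ∑ σ, ‖l.foldl (fun ψ U => U.mulVec ψ) ψ σ‖ ^ 2 = ∑ σ, ‖ψ σ‖ ^ 2 := by
  induction l with
  | nil => exact fun _ => rfl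
  | cons U l ih =>
    intro ψ
    rw [List.foldl_cons, ih fun V hV => hl V (List.mem_cons_of_mem _ hV),
      topu_uni (hl U List.mem_cons_self)]

theorem topu_cont_layer (n : ℕ) (γ β : ℝ) : Continuous fun J => layer n J γ β := by
  unfold layer
  refine continuous_const.matrix_mul ?_
  simp only [cost_eq, ← Matrix.diagonal_smul, Matrix.exp_diagonal]
  refine Continuous.matrix_diagonal (continuous_pi fun σ => ?_)
  simp only [Pi.coe_exp, Pi.smul_apply, smul_eq_mul, ← Complex.exp_eq_exp_ℂ]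
  unfold ham
  fun_prop

theorem topu_cont_fold {n : ℕ} (l : List (ℝ × ℝ)) : ∀ ψ : (Pair n → ℝ) → Bas n → ℂ,
    Continuous ψ → Continuous fun J =>
      (l.map fun a => layer n J a.1 a.2).foldl (fun ψ U => U.mulVec ψ) (ψ J) := by
  induction l with
  | nil => exact fun _ h => h
  | cons a l ih =>
    intro ψ h
    simp only [List.map_cons, List.foldl_cons]
    exact ih _ ((topu_cont_layer n a.1 a.2).matrix_mulVec h)

theorem topu_cont (n : ℕ) {p : ℕ} (γ β : Fin p → ℝ) : Continuous fun J => qaoa n J γ β := by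
  have h := topu_cont_fold (n := n) (List.ofFn fun t => (γ t, β t)) (fun _ => plus n)
    continuous_const
  simp only [List.map_ofFn] at h
  exact h

/-- the layers are unitary (exponential of a skew Hermitian matrix: `Matrix.exp_conjTranspose`,
`Matrix.exp_neg` or `exp_add_of_commute`), so the state has norm one -/
theorem qaoa_norm (n : ℕ) (J : Pair n → ℝ) {p : ℕ} (γ β : Fin p → ℝ) :
    ∑ σ, ‖qaoa n J γ β σ‖ ^ 2 = 1 := by
  unfold qaoa
  rw [topu_fold _ (fun U hU => ?_), topu_plus]
  obtain ⟨t, rfl⟩ := List.mem_ofFn.1 hU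
  exact topu_layer n J _ _

theorem energy_eq (n : ℕ) (J : Pair n → ℝ) (ψ : Bas n → ℂ) :
    energy n J ψ = ∑ σ, ham n J σ * ‖ψ σ‖ ^ 2 := by
  unfold energy dotProduct
  rw [cost_eq, Complex.re_sum]
  refine Finset.sum_congr rfl fun σ _ => ?_
  rw [Matrix.mulVec_diagonal, Pi.star_apply, Complex.star_def, mul_left_comm, Complex.conj_mul',
    ← Complex.ofReal_pow, ← Complex.ofReal_mul, Complex.ofReal_re]

/-- continuity in `J` (`Matrix.exp_diagonal`) and the bound by `∑ p, |J p| / √n` -/
theorem integrable_energy (n : ℕ) {p : ℕ} (γ β : Fin p → ℝ) :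
    Integrable (fun J => energy n J (qaoa n J γ β)) (disorder n) := by
  simp only [energy_eq]
  refine integrable_finsetSum _ fun σ _ => ?_
  refine Integrable.mul_bdd (c := 1) (topu_int_ham n σ) ?_ (ae_of_all _ fun J => ?_)
  · exact (((continuous_apply σ).comp (topu_cont n γ β)).norm.pow 2).aestronglyMeasurable
  · rw [Real.norm_eq_abs, abs_of_nonneg (by positivity), ← qaoa_norm n J γ β]
    exact single_le_sum (f := fun σ => ‖qaoa n J γ β σ‖ ^ 2) (fun _ _ => by positivity)
      (mem_univ σ)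

theorem val_le_gs (n : ℕ) {p : ℕ} (γ β : Fin p → ℝ) : val n γ β ≤ gs n := by
  unfold val gs
  refine div_le_div_of_nonneg_right (integral_mono (integrable_energy n γ β) (integrable_gs n)
    fun J => ?_) (Nat.cast_nonneg n)
  simp only [energy_eq]
  calc ∑ σ, ham n J σ * ‖qaoa n J γ β σ‖ ^ 2
      ≤ ∑ σ, (⨆ τ : Bas n, ham n J τ) * ‖qaoa n J γ β σ‖ ^ 2 :=
        Finset.sum_le_sum fun σ _ => mul_le_mul_of_nonneg_right
          (le_ciSup (f := fun τ => ham n J τ) (Set.finite_range _).bddAbove σ) (by positivity)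
    _ = ⨆ τ : Bas n, ham n J τ := by rw [← Finset.mul_sum, qaoa_norm, mul_one]

/-- a layer with zero angles is the identity -/
theorem val_snoc (n : ℕ) {p : ℕ} (γ β : Fin p → ℝ) :
    val n (Fin.snoc γ 0 : Fin (p + 1) → ℝ) (Fin.snoc β 0 : Fin (p + 1) → ℝ) = val n γ β := by
  have e : ∀ J, qaoa n J (Fin.snoc γ 0 : Fin (p + 1) → ℝ) (Fin.snoc β 0 : Fin (p + 1) → ℝ) =
      qaoa n J γ β := by
    intro J
    unfold qaoa
    rw [List.ofFn_succ_last, List.foldl_append]
    simp [layer]
  simp only [val, e]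

end Vale.Agent.P367
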